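import Mathlib

namespace Vale.Agent.P038

open Finset Matrix

/-- counting via an injective linear map -/
lemma card_le_of_inj {ι κ : Type*} [Fintype ι] [Fintype κ] [DecidableEq ι] [DecidableEq κ]
    (S : Finset ι) (T : Finset κ) (L : (ι → ℝ) →ₗ[ℝ] (κ → ℝ))
    (h : ∀ u : ι → ℝ, (∀ i, i ∉ S → u i = 0) → (∀ k ∈ T, L u k = 0) → u = 0) :
    S.card ≤ T.card := by
  let e : (S → ℝ) →ₗ[ℝ] (ι → ℝ) :=
    { toFun := fun u i => if hi : i ∈ S then u ⟨i, hi⟩ else 0
      map_add' := by intro u v; funext i; by_cases hi : i ∈ S <;> simp [hi]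
      map_smul' := by intro c v; funext i; by_cases hi : i ∈ S <;> simp [hi] }
  let p : (κ → ℝ) →ₗ[ℝ] (T → ℝ) := LinearMap.funLeft ℝ ℝ (fun k : T => (k : κ))
  have hinj : Function.Injective (p ∘ₗ L ∘ₗ e) := by
    rw [← LinearMap.ker_eq_bot, LinearMap.ker_eq_bot']
    intro u hu
    have h0 : e u = 0 := by
      apply h
      · intro i hi; simp [e, hi]
      · intro k hk
        have := congrFun hu ⟨k, hk⟩
        simpa [p, LinearMap.funLeft] using this
    funext i
    have := congrFun h0 i
    simpa [e, i.2] using this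
  have := LinearMap.finrank_le_finrank_of_injective hinj
  simpa using this

variable {V : Type*} [Fintype V] [DecidableEq V]

/-- out-neighbourhood of a set -/
def img (r : V → V → Prop) [DecidableRel r] (S : Finset V) : Finset V :=
  univ.filter (fun y => ∃ x ∈ S, r x y)

lemma mem_img {r : V → V → Prop} [DecidableRel r] {S : Finset V} {y : V} :
    y ∈ img r S ↔ ∃ x ∈ S, r x y := by simp [img]

/-- a generic matrix supported on the arcs -/
lemma exists_generic (r : V → V → Prop) [DecidableRel r] :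
    ∃ b : Matrix V V ℝ, (∀ z y, ¬ r z y → b z y = 0) ∧
      ∀ T U : Finset V, (∀ T1 ⊆ T, T1.card ≤ (img r T1 ∩ U).card) →
        ∀ u : V → ℝ, (∀ z, z ∉ T → u z = 0) → (∀ y ∈ U, ∑ z, u z * b z y = 0) → u = 0 := by
  classical
  let M : Finset V × (V → V) → Matrix V V (MvPolynomial (V × V) ℝ) := fun q => Matrix.of fun z z' =>
    if z ∈ q.1 ∧ z' ∈ q.1 then (if r z (q.2 z') then MvPolynomial.X (z, q.2 z') else 0)
    else if z = z' then 1 else 0
  let G : Finset (Finset V × (V → V)) :=
    univ.filter (fun q => Set.InjOn q.2 q.1 ∧ ∀ z ∈ q.1, r z (q.2 z))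
  have hne : ∀ q ∈ G, (M q).det ≠ 0 := by
    intro q hq h0
    simp only [G, mem_filter, mem_univ, true_and] at hq
    have h1 := congrArg (MvPolynomial.eval (fun p : V × V => if p.2 = q.2 p.1 then (1:ℝ) else 0)) h0
    rw [RingHom.map_det, map_zero] at h1
    have : (MvPolynomial.eval (fun p : V × V => if p.2 = q.2 p.1 then (1:ℝ) else 0)).mapMatrix (M q)
        = 1 := by
      ext z z'
      simp only [RingHom.mapMatrix_apply, Matrix.map_apply, M, Matrix.one_apply, Matrix.of_apply]
      by_cases hz : z ∈ q.1 ∧ z' ∈ q.1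
      · rw [if_pos hz]
        by_cases hzz : z = z'
        · subst hzz; simp [hq.2 z hz.1]
        · have : q.2 z' ≠ q.2 z := fun h => hzz (hq.1 hz.2 hz.1 h).symm
          split_ifs <;> simp [this]
      · rw [if_neg hz]; split_ifs <;> simp
    rw [this] at h1; simp at h1
  have hprod : ∏ q ∈ G, (M q).det ≠ 0 := prod_ne_zero_iff.mpr hne
  obtain ⟨c, hc⟩ : ∃ c : V × V → ℝ, MvPolynomial.eval c (∏ q ∈ G, (M q).det) ≠ 0 := by
    by_contra hcon
    push Not at hcon
    exact hprod (MvPolynomial.funext (by simpa using hcon))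
  rw [map_prod, prod_ne_zero_iff] at hc
  refine ⟨fun z y => if r z y then c (z, y) else 0, fun z y h => by simp [h], ?_⟩
  intro T U hH u hu hU
  obtain ⟨f0, hf0, hf1⟩ := (Finset.all_card_le_biUnion_card_iff_existsInjective'
    (fun z : T => img r {(z : V)} ∩ U)).mp (by
      intro s
      have h1 := hH (s.map (Function.Embedding.subtype _)) (by
        intro z hz; simp only [mem_map, Function.Embedding.coe_subtype] at hz
        obtain ⟨a, _, rfl⟩ := hz; exact a.2)
      rw [card_map] at h1
      refine h1.trans (card_le_card ?_)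
      intro y hy
      simp only [mem_inter, mem_img, mem_map, Function.Embedding.coe_subtype] at hy
      obtain ⟨⟨x, ⟨a, ha, rfl⟩, hr⟩, hyU⟩ := hy
      simp only [mem_biUnion, mem_inter, mem_img, mem_singleton]
      exact ⟨a, ha, ⟨_, rfl, hr⟩, hyU⟩)
  let f : V → V := fun z => if hz : z ∈ T then f0 ⟨z, hz⟩ else z
  have hfT : ∀ z ∈ T, r z (f z) ∧ f z ∈ U := by
    intro z hz
    have := hf1 ⟨z, hz⟩
    simp only [mem_inter, mem_img, mem_singleton] at this
    obtain ⟨⟨x, rfl, hr⟩, h2⟩ := this
    simp only [f, dif_pos hz]; exact ⟨hr, h2⟩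
  have hG : (T, f) ∈ G := by
    simp only [G, mem_filter, mem_univ, true_and]
    refine ⟨?_, fun z hz => (hfT z hz).1⟩
    intro a ha b hb hab
    simp only [mem_coe] at ha hb
    simp only [f, dif_pos ha, dif_pos hb] at hab
    simpa using hf0 hab
  have hdet := hc _ hG
  rw [RingHom.map_det] at hdet
  apply Matrix.eq_zero_of_vecMul_eq_zero hdet
  funext z'
  simp only [Matrix.vecMul, dotProduct, RingHom.mapMatrix_apply, Matrix.map_apply, M, Pi.zero_apply,
    Matrix.of_apply]
  by_cases hz' : z' ∈ T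
  · rw [← hU (f z') (hfT z' hz').2]
    apply sum_congr rfl
    intro z _
    by_cases hz : z ∈ T
    · simp only [hz, hz', and_self, if_true]
      split_ifs <;> simp
    · simp [hu z hz]
  · apply sum_eq_zero
    intro z _
    by_cases hz : z ∈ T
    · have : z ≠ z' := fun h => hz' (h ▸ hz)
      simp [hz', this]
    · simp [hu z hz]

end Vale.Agent.P038
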