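import Vale.Agent.P038.Open

namespace Vale.Agent.P038

open Finset

universe u

/-- counterexample condition -/
def Cex {V : Type u} [Fintype V] [DecidableEq V] (r : V → V → Prop) [DecidableRel r] : Prop :=
  ∀ v, (img r {v} ∪ img r (img r {v})).card < 2 * (img r {v}).card

def arcs {V : Type u} [Fintype V] [DecidableEq V] (r : V → V → Prop) [DecidableRel r] : ℕ :=
  (univ.filter fun p : V × V => r p.1 p.2).card

lemma img_mono {V : Type u} [Fintype V] [DecidableEq V] {r : V → V → Prop} [DecidableRel r]
    {S T : Finset V} (h : S ⊆ T) : img r S ⊆ img r T := by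
  intro y hy
  obtain ⟨x, hx, hr⟩ := mem_img.mp hy
  exact mem_img.mpr ⟨x, h hx, hr⟩

theorem no_cex (k : ℕ) : ∀ (V : Type u) [Fintype V] [DecidableEq V] [Nonempty V]
    (r : V → V → Prop) [DecidableRel r], arcs r = k → (∀ u v, r u v → ¬ r v u) → ¬ Cex r := by
  induction k using Nat.strong_induction_on with
  | _ k ih =>
  intro V _ _ _ r _ hk hasym hc
  have hout : ∀ v, ∃ w, r v w := by
    intro v
    have h1 := hc v
    have : (img r {v}).Nonempty := card_pos.mp (by omega)
    obtain ⟨w, hw⟩ := this
    obtain ⟨x, hx, hr⟩ := mem_img.mp hw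
    rw [mem_singleton] at hx; subst hx
    exact ⟨w, hr⟩
  -- no closed proper subset
  have hclosed : ∀ S : Finset V, S.Nonempty → S ≠ univ → ¬ img r S ⊆ S := by
    intro S hS hne hcl
    have : Nonempty S := ⟨⟨_, hS.choose_spec⟩⟩
    let r' : S → S → Prop := fun a b => r a b
    have himg : ∀ T : Finset S, (img r' T).map (Function.Embedding.subtype _) =
        img r (T.map (Function.Embedding.subtype _)) := by
      intro T
      ext y
      simp only [mem_map, mem_img, Function.Embedding.coe_subtype]
      constructor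
      · rintro ⟨a, ⟨x, hx, hr⟩, rfl⟩
        exact ⟨x, ⟨x, hx, rfl⟩, hr⟩
      · rintro ⟨x, ⟨a, ha, rfl⟩, hr⟩
        exact ⟨⟨y, hcl (mem_img.mpr ⟨a, a.2, hr⟩)⟩, ⟨a, ha, hr⟩, rfl⟩
    refine ih (arcs r') ?_ S r' rfl (fun u v => hasym u v) ?_
    · rw [← hk]
      obtain ⟨v, hv⟩ : ∃ v, v ∉ S := by
        by_contra h
        push Not at h
        exact hne (eq_univ_iff_forall.mpr h)
      obtain ⟨w, hw⟩ := hout v
      unfold arcs
      rw [← card_map (f := (Function.Embedding.subtype (· ∈ S)).prodMap
        (Function.Embedding.subtype (· ∈ S)))]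
      apply card_lt_card
      rw [ssubset_iff_of_subset]
      · refine ⟨(v, w), by simpa using hw, ?_⟩
        simp only [mem_map, not_exists, not_and]
        rintro ⟨a, b⟩ _ h
        have h2 : (a : V) = v := congrArg Prod.fst h
        exact hv (h2 ▸ a.2)
      · intro p hp
        simp only [mem_map, mem_filter, mem_univ, true_and] at hp ⊢
        obtain ⟨a, ha, rfl⟩ := hp
        exact ha
    · intro v
      have h1 := hc v
      rw [← card_map (f := Function.Embedding.subtype (· ∈ S)),
        ← card_map (f := Function.Embedding.subtype (· ∈ S)) (s := img r' {v}), map_union, himg,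
        himg, himg]
      simpa using h1
  have hin : ∀ v, ∃ u, r u v := by
    intro v
    by_contra h
    push Not at h
    obtain ⟨w, hw⟩ := hout v
    apply hclosed (univ.erase v) ⟨w, by
      simp only [mem_erase, mem_univ, and_true]; rintro rfl; exact h _ hw⟩
    · intro h2
      have : v ∈ univ.erase v := by rw [h2]; exact mem_univ _
      simp at this
    · intro y hy
      obtain ⟨x, _, hr⟩ := mem_img.mp hy
      simp only [mem_erase, mem_univ, and_true]
      rintro rfl; exact h _ hr
  apply no_strict hasym hin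
  intro S hS hne
  set Q := img r S with hQ
  let E : Finset V → Finset V := fun Y => Y ∪ img r (Y \ S)
  let e : Finset V → ℤ := fun Y => ((E Y).card : ℤ) - 2 * Y.card
  have hall : ∀ Y ⊆ Q, (∀ Y' ⊆ Q, e Y ≤ e Y') → Y = Q := by
    intro Y hY hmin
    by_contra hYQ
    let r' : V → V → Prop := fun a b => r a b ∧ (a ∈ S → b ∈ Y)
    refine ih (arcs r') ?_ V r' rfl (fun u v h g => hasym u v h.1 g.1) ?_
    · rw [← hk]
      obtain ⟨y, hy, hyY⟩ := exists_of_ssubset (ssubset_of_subset_of_ne hY hYQ)
      obtain ⟨x, hx, hr⟩ := mem_img.mp hy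
      apply card_lt_card
      rw [ssubset_iff_of_subset]
      · refine ⟨(x, y), by simpa using hr, ?_⟩
        simp only [mem_filter, mem_univ, true_and, r', not_and]
        exact fun _ h => hyY (h hx)
      · intro p hp
        simp only [mem_filter, mem_univ, true_and] at hp ⊢
        exact hp.1
    · intro v
      have h1 := hc v
      have hsub : ∀ T, img r' T ⊆ img r T := by
        intro T y hy
        obtain ⟨x, hx, hr⟩ := mem_img.mp hy
        exact mem_img.mpr ⟨x, hx, hr.1⟩
      by_cases hv : v ∈ S
      · have e1 : img r' {v} = img r {v} ∩ Y := by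
          ext y; simp [mem_img, r', hv]
        rw [e1]
        set N := img r {v} with hN
        have hNQ : N ⊆ Q := img_mono (singleton_subset_iff.mpr hv)
        have h2 := hmin (N ∪ Y) (union_subset hNQ hY)
        have h3 : N ∩ Y ∪ img r' (N ∩ Y) ⊆ (N ∪ img r N) ∩ E Y := by
          intro y hy
          rcases mem_union.mp hy with hy | hy
          · exact mem_inter.mpr ⟨mem_union_left _ (mem_inter.mp hy).1,
              mem_union_left _ (mem_inter.mp hy).2⟩
          · obtain ⟨x, hx, hr⟩ := mem_img.mp hy
            refine mem_inter.mpr ⟨mem_union_right _ (mem_img.mpr ⟨x, (mem_inter.mp hx).1, hr.1⟩), ?_⟩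
            by_cases hxS : x ∈ S
            · exact mem_union_left _ (hr.2 hxS)
            · exact mem_union_right _
                (mem_img.mpr ⟨x, mem_sdiff.mpr ⟨(mem_inter.mp hx).2, hxS⟩, hr.1⟩)
        have h4 : E (N ∪ Y) ⊆ (N ∪ img r N) ∪ E Y := by
          intro y hy
          rcases mem_union.mp hy with hy | hy
          · rcases mem_union.mp hy with hy | hy
            · exact mem_union_left _ (mem_union_left _ hy)
            · exact mem_union_right _ (mem_union_left _ hy)
          · obtain ⟨x, hx, hr⟩ := mem_img.mp hy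
            rcases mem_union.mp (mem_sdiff.mp hx).1 with h | h
            · exact mem_union_left _ (mem_union_right _ (mem_img.mpr ⟨x, h, hr⟩))
            · exact mem_union_right _ (mem_union_right _
                (mem_img.mpr ⟨x, mem_sdiff.mpr ⟨h, (mem_sdiff.mp hx).2⟩, hr⟩))
        have h5 := card_le_card h3
        have h6 := card_le_card h4
        have h7 := card_union_add_card_inter (N ∪ img r N) (E Y)
        have h8 := card_union_add_card_inter N Y
        simp only [e] at h2
        omega
      · have e1 : img r' {v} = img r {v} := by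
          ext y; simp [mem_img, r', hv]
        rw [e1]
        exact lt_of_le_of_lt (card_le_card (union_subset_union_right (hsub _))) h1
  obtain ⟨Y, hY, hmin⟩ := exists_min_image Q.powerset e ⟨∅, by simp⟩
  have hYQ := hall Y (mem_powerset.mp hY) (fun Y' h => hmin Y' (mem_powerset.mpr h))
  rw [hYQ] at hmin
  have hlt : e Q < e (Q ∩ S) := by
    apply lt_of_le_of_ne (hmin _ (mem_powerset.mpr inter_subset_left))
    intro h
    have := hall (Q ∩ S) inter_subset_left
      (fun Y' h' => h ▸ hmin Y' (mem_powerset.mpr h'))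
    exact hclosed S hS hne (by rw [← hQ, ← this]; exact inter_subset_right)
  have e1 : E (Q ∩ S) = Q ∩ S := by
    have : (Q ∩ S) \ S = ∅ := by ext; simp +contextual
    simp only [E, this]
    ext y; simp [mem_img]
  have e2 : E Q = img r Q ∪ Q := by
    ext y
    simp only [E, mem_union]
    constructor
    · rintro (h | h)
      · exact Or.inr h
      · exact Or.inl (img_mono sdiff_subset h)
    · rintro (h | h)
      · obtain ⟨x, hx, hr⟩ := mem_img.mp h
        by_cases hxS : x ∈ S
        · exact Or.inl (mem_img.mpr ⟨x, hxS, hr⟩)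
        · exact Or.inr (mem_img.mpr ⟨x, mem_sdiff.mpr ⟨hx, hxS⟩, hr⟩)
      · exact Or.inl h
  simp only [e, e1, e2] at hlt
  have h1 := card_sdiff_add_card (img r Q) Q
  have h2 := card_sdiff_add_card_inter Q S
  omega

theorem seymour (V : Type u) [Finite V] [Nonempty V] (r : V → V → Prop)
    (hasym : ∀ u v, r u v → ¬ r v u) :
    ∃ v, {u | r v u}.ncard ≤ {w | w ≠ v ∧ ¬ r v w ∧ ∃ u, r v u ∧ r u w}.ncard := by
  classical
  have := Fintype.ofFinite V
  have h := no_cex _ V r rfl hasym
  unfold Cex at h
  push Not at h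
  obtain ⟨v, hv⟩ := h
  refine ⟨v, ?_⟩
  have e1 : {u | r v u} = ↑(img r {v}) := by ext u; simp [mem_img]
  have e2 : {w | w ≠ v ∧ ¬ r v w ∧ ∃ u, r v u ∧ r u w} = ↑(img r (img r {v}) \ img r {v}) := by
    ext w
    simp only [Set.mem_setOf_eq, coe_sdiff, Set.mem_sdiff, mem_coe, mem_img, mem_singleton,
      exists_eq_left]
    constructor
    · rintro ⟨_, h2, h3⟩; exact ⟨h3, h2⟩
    · rintro ⟨⟨u, h1, h2⟩, h3⟩
      exact ⟨fun h => hasym _ _ h1 (h ▸ h2), h3, u, h1, h2⟩
  rw [e1, e2, Set.ncard_coe_finset, Set.ncard_coe_finset]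
  have h1 := card_sdiff_add_card (img r (img r {v})) (img r {v})
  rw [union_comm] at h1
  omega

end Vale.Agent.P038
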