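import Vale.Agent.P038.Pairs

namespace Vale.Agent.P038

open Finset

variable {V : Type*} [Fintype V] [DecidableEq V] {r : V → V → Prop} [DecidableRel r]

lemma card_rows (X : Finset (V × V)) : X.card = ∑ x, (univ.filter fun z => (x, z) ∈ X).card := by
  rw [card_eq_sum_card_fiberwise (f := Prod.fst) (t := univ) (fun _ _ => mem_coe.mpr (mem_univ _))]
  apply sum_congr rfl
  intro x _
  apply card_bij (fun p _ => p.2)
  · rintro ⟨a, b⟩ h; simp only [mem_filter] at h; obtain ⟨h, rfl⟩ := h; simpa using h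
  · rintro ⟨a, b⟩ h ⟨c, d⟩ h' e
    simp only [mem_filter] at h h'; simp only at e
    rw [Prod.mk.injEq]; exact ⟨h.2.trans h'.2.symm, e⟩
  · intro b h; exact ⟨(x, b), by simpa using h, rfl⟩

lemma card_cols (X : Finset (V × V)) : X.card = ∑ y, (univ.filter fun w => (w, y) ∈ X).card := by
  rw [card_eq_sum_card_fiberwise (f := Prod.snd) (t := univ) (fun _ _ => mem_coe.mpr (mem_univ _))]
  apply sum_congr rfl
  intro x _
  apply card_bij (fun p _ => p.1)
  · rintro ⟨a, b⟩ h; simp only [mem_filter] at h; obtain ⟨h, rfl⟩ := h; simpa using h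
  · rintro ⟨a, b⟩ h ⟨c, d⟩ h' e
    simp only [mem_filter] at h h'; simp only at e
    rw [Prod.mk.injEq]; exact ⟨e, h.2.trans h'.2.symm⟩
  · intro b h; exact ⟨(b, x), by simpa using h, rfl⟩

lemma row_rowF (X : Finset (V × V)) (x : V) :
    (univ.filter fun z => (x, z) ∈ rowF r X) = img r (univ.filter fun z => (x, z) ∈ X) := by
  ext y; simp [mem_rowF, mem_img]

lemma col_colF (X : Finset (V × V)) (y : V) :
    (univ.filter fun w => (w, y) ∈ colF r X) = img r (univ.filter fun w => (w, y) ∈ X) := by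
  ext x; simp [mem_colF, mem_img]

lemma rowF_union (X Y : Finset (V × V)) : rowF r (X ∪ Y) = rowF r X ∪ rowF r Y := by
  ext ⟨x, y⟩; simp only [mem_rowF, mem_union]; grind

lemma colF_union (X Y : Finset (V × V)) : colF r (X ∪ Y) = colF r X ∪ colF r Y := by
  ext ⟨x, y⟩; simp only [mem_colF, mem_union]; grind

/-- no oriented graph has strictly concave growth of out-neighbourhoods -/
theorem no_open [Nonempty V] (hasym : ∀ u v, r u v → ¬ r v u) (hin : ∀ v, ∃ u, r u v)
    (hop : ∀ S : Finset V, S.Nonempty → img r S ≠ univ →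
      S.card + (img r (img r S)).card < 2 * (img r S).card) : False := by
  let val : Finset (V × V) × Finset (V × V) → ℤ := fun q =>
    ((rowF r q.1).card : ℤ) - q.1.card + (colF r q.2).card - q.2.card
  let K1 : Finset (Finset (V × V) × Finset (V × V)) := univ.filter fun q =>
    Disjoint (rowF r q.1) (colF r q.2) ∧ (∀ x, (x, x) ∈ q.1) ∧ (∀ x, (x, x) ∈ q.2)
  let K2 : Finset (Finset (V × V) × Finset (V × V)) := univ.filter fun q =>
    Disjoint q.1 q.2 ∧ (∀ x y, r x y → (x, y) ∈ q.1) ∧ (∀ x y, r x y → (y, x) ∈ q.2)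
  have hK1 : K1.Nonempty := by
    refine ⟨(univ.filter fun p => p.1 = p.2, univ.filter fun p => p.1 = p.2), ?_⟩
    simp only [K1, mem_filter, mem_univ, true_and, implies_true, and_true]
    rw [disjoint_left]
    rintro ⟨x, y⟩ h1 h2
    simp only [mem_rowF, mem_colF, mem_filter, mem_univ, true_and] at h1 h2
    obtain ⟨z, rfl, h1⟩ := h1
    obtain ⟨w, rfl, h2⟩ := h2
    exact hasym _ _ h1 h2
  obtain ⟨⟨X, Y⟩, hXY, hmin1⟩ := exists_min_image K1 val hK1
  simp only [K1, mem_filter, mem_univ, true_and] at hXY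
  obtain ⟨hd, hX, hY⟩ := hXY
  have hmem : (rowF r X, colF r Y) ∈ K2 := by
    simp only [K2, mem_filter, mem_univ, true_and]
    exact ⟨hd, fun x y h => mem_rowF.mpr ⟨x, hX x, h⟩, fun x y h => mem_colF.mpr ⟨x, hY x, h⟩⟩
  have hlt : val (rowF r X, colF r Y) < val (X, Y) := by
    have h1 : X.card + (rowF r (rowF r X)).card < 2 * (rowF r X).card := by
      rw [card_rows X, card_rows (rowF r (rowF r X)), card_rows (rowF r X), ← sum_add_distrib,
        mul_sum]
      apply sum_lt_sum_of_nonempty univ_nonempty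
      intro x _
      rw [row_rowF, row_rowF]
      apply hop
      · exact ⟨x, by simpa using hX x⟩
      · rw [← row_rowF]
        obtain ⟨u, hu⟩ := hin x
        intro h
        have h2 : u ∈ univ.filter fun z => (x, z) ∈ rowF r X := by rw [h]; exact mem_univ _
        exact disjoint_left.mp hd (mem_filter.mp h2).2 (mem_colF.mpr ⟨u, hY u, hu⟩)
    have h2 : Y.card + (colF r (colF r Y)).card < 2 * (colF r Y).card := by
      rw [card_cols Y, card_cols (colF r (colF r Y)), card_cols (colF r Y), ← sum_add_distrib,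
        mul_sum]
      apply sum_lt_sum_of_nonempty univ_nonempty
      intro x _
      rw [col_colF, col_colF]
      apply hop
      · exact ⟨x, by simpa using hY x⟩
      · rw [← col_colF]
        obtain ⟨u, hu⟩ := hin x
        intro h
        have h2 : u ∈ univ.filter fun z => (z, x) ∈ colF r Y := by rw [h]; exact mem_univ _
        exact disjoint_left.mp hd (mem_rowF.mpr ⟨u, hX u, hu⟩) (mem_filter.mp h2).2
    simp only [val]
    omega
  obtain ⟨⟨A, B⟩, hAB, hmin2⟩ := exists_min_image K2 val ⟨_, hmem⟩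
  have hle := hmin2 _ hmem
  simp only [K2, mem_filter, mem_univ, true_and] at hAB
  obtain ⟨hdAB, hA, hB⟩ := hAB
  set Z := (A ∪ B)ᶜ with hZ
  have hcov : ∀ p, p ∈ A ∨ p ∈ B ∨ p ∈ Z := by
    intro p; simp only [hZ, mem_compl, mem_union]; tauto
  have hZA : ∀ p ∈ Z, p ∉ A := by intro p; simp only [hZ, mem_compl, mem_union]; tauto
  have hZB : ∀ p ∈ Z, p ∉ B := by intro p; simp only [hZ, mem_compl, mem_union]; tauto
  have hR : ∀ Z1 ⊆ Z, Z1.card ≤ (rowF r Z1 \ rowF r A).card := by
    intro Z1 h
    have h1 := hmin2 (A ∪ Z1, B) (by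
      simp only [K2, mem_filter, mem_univ, true_and]
      refine ⟨disjoint_union_left.mpr ⟨hdAB, disjoint_left.mpr fun p hp => hZB p (h hp)⟩,
        fun x y h => mem_union_left _ (hA x y h), hB⟩)
    simp only [val, rowF_union] at h1
    have h2 : (A ∪ Z1).card = A.card + Z1.card :=
      card_union_of_disjoint (disjoint_right.mpr fun p hp => hZA p (h hp))
    have h3 := card_sdiff_add_card (rowF r Z1) (rowF r A)
    rw [union_comm] at h3
    omega
  have hC : ∀ Z1 ⊆ Z, Z1.card ≤ (colF r Z1 \ colF r B).card := by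
    intro Z1 h
    have h1 := hmin2 (A, B ∪ Z1) (by
      simp only [K2, mem_filter, mem_univ, true_and]
      refine ⟨disjoint_union_right.mpr ⟨hdAB, disjoint_right.mpr fun p hp => hZA p (h hp)⟩,
        hA, fun x y h => mem_union_left _ (hB x y h)⟩)
    simp only [val, colF_union] at h1
    have h2 : (B ∪ Z1).card = B.card + Z1.card :=
      card_union_of_disjoint (disjoint_right.mpr fun p hp => hZB p (h hp))
    have h3 := card_sdiff_add_card (colF r Z1) (colF r B)
    rw [union_comm] at h3
    omega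
  have key := hodge A B Z hcov hR hC
  set O := rowF r (colF r B)ᶜ ∩ colF r (rowF r A)ᶜ with hO
  set X2 := (colF r (B ∪ Z))ᶜ with hX2
  set Y2 := (rowF r (A ∪ Z))ᶜ with hY2
  have d1 : Disjoint (rowF r X2) (colF r (rowF r A)ᶜ) := by
    rw [disjoint_left]
    rintro ⟨x, y⟩ h1 h2
    obtain ⟨z, h1, hz⟩ := mem_rowF.mp h1
    obtain ⟨w, h2, hw⟩ := mem_colF.mp h2
    rw [hX2, mem_compl] at h1
    rw [mem_compl] at h2
    rcases hcov (w, z) with h | h | h
    · exact h2 (mem_rowF.mpr ⟨z, h, hz⟩)
    · exact h1 (mem_colF.mpr ⟨w, mem_union_left _ h, hw⟩)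
    · exact h1 (mem_colF.mpr ⟨w, mem_union_right _ h, hw⟩)
  have d2 : Disjoint (rowF r (colF r B)ᶜ) (colF r Y2) := by
    rw [disjoint_left]
    rintro ⟨x, y⟩ h1 h2
    obtain ⟨z, h1, hz⟩ := mem_rowF.mp h1
    obtain ⟨w, h2, hw⟩ := mem_colF.mp h2
    rw [hY2, mem_compl] at h2
    rw [mem_compl] at h1
    rcases hcov (w, z) with h | h | h
    · exact h2 (mem_rowF.mpr ⟨z, mem_union_left _ h, hz⟩)
    · exact h1 (mem_colF.mpr ⟨w, h, hw⟩)
    · exact h2 (mem_rowF.mpr ⟨z, mem_union_right _ h, hz⟩)
  have d3 : Disjoint (rowF r X2) (colF r Y2) := by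
    refine d1.mono_right ?_
    rintro ⟨x, y⟩ h
    obtain ⟨w, h2, hw⟩ := mem_colF.mp h
    refine mem_colF.mpr ⟨w, ?_, hw⟩
    rw [hY2, mem_compl, rowF_union, mem_union] at h2
    rw [mem_compl]; tauto
  have hmem2 : (X2, Y2) ∈ K1 := by
    simp only [K1, mem_filter, mem_univ, true_and]
    refine ⟨d3, fun x => ?_, fun x => ?_⟩
    · rw [hX2, mem_compl, mem_colF]
      rintro ⟨w, h, hw⟩
      rcases mem_union.mp h with h | h
      · exact disjoint_left.mp hdAB (hA _ _ hw) h
      · exact hZA _ h (hA _ _ hw)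
    · rw [hY2, mem_compl, mem_rowF]
      rintro ⟨w, h, hw⟩
      rcases mem_union.mp h with h | h
      · exact disjoint_left.mp hdAB h (hB _ _ hw)
      · exact hZB _ h (hB _ _ hw)
  have h4 := hmin1 _ hmem2
  have c1 : (rowF r X2).card + (colF r Y2).card + O.card ≤ Fintype.card (V × V) := by
    rw [← card_union_of_disjoint d3, ← card_union_of_disjoint]
    · exact card_le_univ _
    · rw [disjoint_union_left]
      exact ⟨d1.mono_right inter_subset_right, (d2.mono_left inter_subset_left).symm⟩
  have c2 : X2.card + (colF r Z \ colF r B).card + (colF r B).card = Fintype.card (V × V) := by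
    have h3 := card_sdiff_add_card (colF r Z) (colF r B)
    have h5 := card_add_card_compl (colF r (B ∪ Z))
    rw [← hX2, colF_union, union_comm] at h5
    omega
  have c3 : Y2.card + (rowF r Z \ rowF r A).card + (rowF r A).card = Fintype.card (V × V) := by
    have h3 := card_sdiff_add_card (rowF r Z) (rowF r A)
    have h5 := card_add_card_compl (rowF r (A ∪ Z))
    rw [← hY2, rowF_union, union_comm] at h5
    omega
  have c4 : A.card + B.card + Z.card = Fintype.card (V × V) := by
    have h5 := card_add_card_compl (A ∪ B)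
    rw [card_union_of_disjoint hdAB] at h5
    exact h5
  simp only [val] at h4 hle hlt
  omega

/-- the same for the strict pruning inequality, via the product with a transitive tournament -/
theorem no_strict [Nonempty V] (hasym : ∀ u v, r u v → ¬ r v u) (hin : ∀ v, ∃ u, r u v)
    (hst : ∀ P : Finset V, P.Nonempty → P ≠ univ →
      (img r (img r P) \ img r P).card < (img r P \ P).card) : False := by
  set n := Fintype.card V with hn
  let r' : V × Fin (n + 1) → V × Fin (n + 1) → Prop := fun a b =>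
    r a.1 b.1 ∨ (a.1 = b.1 ∧ a.2 < b.2)
  have hirr : ∀ v, ¬ r v v := fun v h => hasym v v h h
  apply no_open (r := r')
  · rintro ⟨u, i⟩ ⟨v, j⟩ (h | ⟨h, h'⟩) (g | ⟨g, g'⟩)
    · exact hasym _ _ h g
    · simp only at h g; subst g; exact hirr _ h
    · simp only at h g; subst h; exact hirr _ g
    · exact lt_asymm h' g'
  · rintro ⟨v, j⟩
    obtain ⟨u, hu⟩ := hin v
    exact ⟨(u, j), Or.inl hu⟩
  · intro S hS hne
    set P := S.image Prod.fst with hP
    have hfull : ∀ v ∈ img r P, ∀ j, (v, j) ∈ img r' S := by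
      intro v hv j
      obtain ⟨u, hu, huv⟩ := mem_img.mp hv
      obtain ⟨a, ha, rfl⟩ := mem_image.mp hu
      exact mem_img.mpr ⟨a, ha, Or.inl huv⟩
    have h0 := hst P (hS.image _) (by
      intro h
      apply hne
      rw [eq_univ_iff_forall]
      rintro ⟨v, j⟩
      obtain ⟨u, hu⟩ := hin v
      exact hfull v (mem_img.mpr ⟨u, by rw [h]; exact mem_univ _, hu⟩) j)
    have h1 : img r' (img r' S) ⊆ img r' S ∪ (img r (img r P) \ img r P) ×ˢ univ := by
      rintro ⟨u, j⟩ h
      obtain ⟨⟨v, i⟩, hv, huv⟩ := mem_img.mp h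
      obtain ⟨⟨v0, i0⟩, hv0, h0⟩ := mem_img.mp hv
      have hv0P : v0 ∈ P := mem_image.mpr ⟨_, hv0, rfl⟩
      by_cases hu : u ∈ img r P
      · exact mem_union_left _ (hfull u hu j)
      rcases huv with huv | ⟨huv, hij⟩
      · rcases h0 with h0 | ⟨h0, _⟩
        · apply mem_union_right
          simp only [mem_product, mem_sdiff, mem_univ, and_true]
          exact ⟨mem_img.mpr ⟨v, mem_img.mpr ⟨v0, hv0P, h0⟩, huv⟩, hu⟩
        · simp only at h0; subst h0
          exact absurd (mem_img.mpr ⟨_, hv0P, huv⟩) hu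
      · simp only at huv; subst huv
        rcases h0 with h0 | ⟨h0, h0'⟩
        · exact absurd (mem_img.mpr ⟨_, hv0P, h0⟩) hu
        · exact mem_union_left _ (mem_img.mpr ⟨_, hv0, Or.inr ⟨h0, lt_trans h0' hij⟩⟩)
    have h2 : (img r' (img r' S)).card ≤
        (img r' S).card + (img r (img r P) \ img r P).card * (n + 1) := by
      refine (card_le_card h1).trans ((card_union_le _ _).trans ?_)
      simp
    have h3 : (S \ img r' S).card ≤ n := by
      change _ ≤ (univ : Finset V).card
      apply card_le_card_of_injOn Prod.fst (fun _ _ => mem_coe.mpr (mem_univ _))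
      rintro ⟨a, i⟩ ha ⟨b, j⟩ hb hab
      simp only at hab; subst hab
      simp only [coe_sdiff, Set.mem_sdiff, mem_coe] at ha hb
      rcases lt_trichotomy i j with h | h | h
      · exact absurd (mem_img.mpr ⟨_, ha.1, Or.inr ⟨rfl, h⟩⟩) hb.2
      · rw [h]
      · exact absurd (mem_img.mpr ⟨_, hb.1, Or.inr ⟨rfl, h⟩⟩) ha.2
    have h4 : (S ∩ img r' S).card + (img r P \ P).card * (n + 1) ≤ (img r' S).card := by
      have e : ((img r P \ P) ×ˢ (univ : Finset (Fin (n + 1)))).card =
          (img r P \ P).card * (n + 1) := by simp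
      rw [← e, ← card_union_of_disjoint]
      · apply card_le_card
        apply union_subset inter_subset_right
        rintro ⟨v, j⟩ h
        simp only [mem_product, mem_sdiff, mem_univ, and_true] at h
        exact hfull v h.1 j
      · rw [disjoint_left]
        rintro ⟨v, j⟩ h g
        simp only [mem_product, mem_sdiff, mem_univ, and_true] at g
        exact g.2 (mem_image.mpr ⟨_, (mem_inter.mp h).1, rfl⟩)
    have h5 := card_sdiff_add_card_inter S (img r' S)
    have h6 : ((img r (img r P) \ img r P).card + 1) * (n + 1) ≤ (img r P \ P).card * (n + 1) :=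
      Nat.mul_le_mul_right _ h0
    rw [add_mul] at h6
    omega

end Vale.Agent.P038
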