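import Vale.Agent.P038.Lin

namespace Vale.Agent.P038

open Finset Matrix

variable {V : Type*} [Fintype V] [DecidableEq V] (r : V → V → Prop) [DecidableRel r]

def rowF (X : Finset (V × V)) : Finset (V × V) :=
  univ.filter (fun p => ∃ z, (p.1, z) ∈ X ∧ r z p.2)

def colF (Y : Finset (V × V)) : Finset (V × V) :=
  univ.filter (fun p => ∃ w, (w, p.2) ∈ Y ∧ r w p.1)

variable {r}

lemma mem_rowF {X : Finset (V × V)} {x y : V} :
    (x, y) ∈ rowF r X ↔ ∃ z, (x, z) ∈ X ∧ r z y := by simp [rowF]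

lemma mem_colF {X : Finset (V × V)} {x y : V} :
    (x, y) ∈ colF r X ↔ ∃ w, (w, y) ∈ X ∧ r w x := by simp [colF]

/-- the key inequality -/
lemma hodge (A B Z : Finset (V × V))
    (hcov : ∀ p, p ∈ A ∨ p ∈ B ∨ p ∈ Z)
    (hR : ∀ Z1 ⊆ Z, Z1.card ≤ (rowF r Z1 \ rowF r A).card)
    (hC : ∀ Z1 ⊆ Z, Z1.card ≤ (colF r Z1 \ colF r B).card) :
    (colF r Z \ colF r B).card + (rowF r Z \ rowF r A).card ≤
      Z.card + (rowF r (colF r B)ᶜ ∩ colF r (rowF r A)ᶜ).card := by
  obtain ⟨b, hb0, hb⟩ := exists_generic r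
  set X1 := colF r Z \ colF r B with hX1
  set Y1 := rowF r Z \ rowF r A with hY1
  set O := rowF r (colF r B)ᶜ ∩ colF r (rowF r A)ᶜ with hO
  let L : ((V × V) ⊕ (V × V) → ℝ) →ₗ[ℝ] ((V × V) ⊕ (V × V) → ℝ) :=
    { toFun := fun s k => match k with
        | Sum.inl p => ∑ x, b p.1 x * s (Sum.inl (x, p.2)) + ∑ y, s (Sum.inr (p.1, y)) * b p.2 y
        | Sum.inr p => ∑ z, s (Sum.inl (p.1, z)) * b z p.2 - ∑ w, b w p.1 * s (Sum.inr (w, p.2))
      map_add' := by
        intro s t; funext k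
        rcases k with p | p <;> simp only [Pi.add_apply, mul_add, add_mul, sum_add_distrib] <;> ring
      map_smul' := by
        intro c t; funext k
        rcases k with p | p <;>
          simp only [Pi.smul_apply, smul_eq_mul, RingHom.id_apply, mul_add, mul_sub, mul_sum] <;>
          congr 1 <;> apply sum_congr rfl <;> intros <;> ring }
  have key := card_le_of_inj (X1.disjSum Y1) (Z.disjSum O) L ?_
  · simpa [card_disjSum] using key
  intro s hs hL
  let u : Matrix V V ℝ := Matrix.of fun x z => s (Sum.inl (x, z))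
  let v : Matrix V V ℝ := Matrix.of fun w y => s (Sum.inr (w, y))
  have hu : ∀ x z, (x, z) ∉ X1 → u x z = 0 := fun x z h => hs _ (by simpa using h)
  have hv : ∀ x z, (x, z) ∉ Y1 → v x z = 0 := fun x z h => hs _ (by simpa using h)
  have hZ : ∀ w z, (w, z) ∈ Z → (b * u) w z + (v * bᵀ) w z = 0 := by
    intro w z h
    have := hL (Sum.inl (w, z)) (by simpa using h)
    simpa [L, Matrix.mul_apply, u, v] using this
  have hOO : ∀ x y, (x, y) ∈ O → (u * b) x y = (bᵀ * v) x y := by
    intro x y h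
    have := hL (Sum.inr (x, y)) (by simpa using h)
    rw [← sub_eq_zero]
    simpa [L, Matrix.mul_apply, u, v] using this
  have hid : ∑ x, ∑ y, (u * b) x y * (bᵀ * v) x y = ∑ w, ∑ z, (b * u) w z * (v * bᵀ) w z := by
    have e1 : ∑ x, ∑ y, (u * b) x y * (bᵀ * v) x y = Matrix.trace ((u * b) * (bᵀ * v)ᵀ) := by
      simp only [Matrix.trace, Matrix.diag, Matrix.mul_apply (M := u * b), Matrix.transpose_apply]
    have e2 : ∑ w, ∑ z, (b * u) w z * (v * bᵀ) w z = Matrix.trace ((b * u) * (v * bᵀ)ᵀ) := by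
      simp only [Matrix.trace, Matrix.diag, Matrix.mul_apply (M := b * u), Matrix.transpose_apply]
    rw [e1, e2]
    simp only [Matrix.transpose_mul, Matrix.transpose_transpose]
    rw [Matrix.mul_assoc b u, Matrix.trace_mul_comm b]
    simp only [Matrix.mul_assoc]
  -- supports
  have s1 : ∀ x y, (x, y) ∉ rowF r (colF r B)ᶜ → (u * b) x y = 0 := by
    intro x y h
    rw [Matrix.mul_apply]; apply sum_eq_zero; intro z _
    by_cases h1 : (x, z) ∈ X1
    · have : ¬ r z y := fun hr => h (mem_rowF.mpr ⟨z, by simpa using (mem_sdiff.mp h1).2, hr⟩)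
      simp [hb0 _ _ this]
    · simp [hu _ _ h1]
  have s2 : ∀ x y, (x, y) ∉ colF r (rowF r A)ᶜ → (bᵀ * v) x y = 0 := by
    intro x y h
    rw [Matrix.mul_apply]; apply sum_eq_zero; intro w _
    by_cases h1 : (w, y) ∈ Y1
    · have : ¬ r w x := fun hr => h (mem_colF.mpr ⟨w, by simpa using (mem_sdiff.mp h1).2, hr⟩)
      simp [hb0 _ _ this]
    · simp [hv _ _ h1]
  have s3 : ∀ w z, (w, z) ∈ B → (b * u) w z = 0 := by
    intro w z h
    rw [Matrix.mul_apply]; apply sum_eq_zero; intro x _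
    by_cases h1 : (x, z) ∈ X1
    · have : ¬ r w x := fun hr => (mem_sdiff.mp h1).2 (mem_colF.mpr ⟨w, h, hr⟩)
      simp [hb0 _ _ this]
    · simp [hu _ _ h1]
  have s4 : ∀ w z, (w, z) ∈ A → (v * bᵀ) w z = 0 := by
    intro w z h
    rw [Matrix.mul_apply]; apply sum_eq_zero; intro y _
    by_cases h1 : (w, y) ∈ Y1
    · have : ¬ r z y := fun hr => (mem_sdiff.mp h1).2 (mem_rowF.mpr ⟨z, h, hr⟩)
      simp [hb0 _ _ this]
    · simp [hv _ _ h1]
  have n1 : ∀ x y, 0 ≤ (u * b) x y * (bᵀ * v) x y := by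
    intro x y
    by_cases h : (x, y) ∈ O
    · rw [hOO x y h]; exact mul_self_nonneg _
    · rw [hO, mem_inter, not_and_or] at h
      rcases h with h | h
      · simp [s1 _ _ h]
      · simp [s2 _ _ h]
  have n2 : ∀ w z, (b * u) w z * (v * bᵀ) w z ≤ 0 := by
    intro w z
    rcases hcov (w, z) with h | h | h
    · simp [s4 _ _ h]
    · simp [s3 _ _ h]
    · have := hZ w z h
      have e : (v * bᵀ) w z = - (b * u) w z := by linarith
      rw [e]; nlinarith [mul_self_nonneg ((b * u) w z)]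
  have z1 : ∑ x, ∑ y, (u * b) x y * (bᵀ * v) x y = 0 := by
    apply le_antisymm
    · rw [hid]; exact sum_nonpos fun w _ => sum_nonpos fun z _ => n2 w z
    · exact sum_nonneg fun w _ => sum_nonneg fun z _ => n1 w z
  have z2 : ∀ x y, (u * b) x y * (bᵀ * v) x y = 0 := by
    intro x y
    have h1 := (sum_eq_zero_iff_of_nonneg (fun w _ => sum_nonneg fun z _ => n1 w z)).mp z1 x
      (mem_univ _)
    exact (sum_eq_zero_iff_of_nonneg (fun z _ => n1 x z)).mp h1 y (mem_univ _)
  have z3 : ∀ x y, (x, y) ∈ O → (u * b) x y = 0 ∧ (bᵀ * v) x y = 0 := by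
    intro x y h
    have h1 := z2 x y
    rw [hOO x y h] at h1 ⊢
    simpa using h1
  have hu0 : ∀ x z, u x z = 0 := by
    intro x z
    by_cases h1 : (x, z) ∈ X1
    swap
    · exact hu _ _ h1
    obtain ⟨w, hw, hwx⟩ := mem_colF.mp (mem_sdiff.mp h1).1
    have := hb (univ.filter fun z => (w, z) ∈ Z) (univ.filter fun y => (w, y) ∉ rowF r A) ?_
      (fun z => if (w, z) ∈ Z then u x z else 0) (by intro z hz; simp at hz; simp [hz]) ?_
    · simpa [hw] using congrFun this z
    · intro T1 hT1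
      have h2 := hR (T1.map ⟨fun z => (w, z), fun a b h => by simpa using h⟩) (by
        intro p hp
        simp only [mem_map, Function.Embedding.coeFn_mk] at hp
        obtain ⟨a, ha, rfl⟩ := hp
        exact (mem_filter.mp (hT1 ha)).2)
      rw [card_map] at h2
      refine h2.trans ?_
      apply card_le_card_of_injOn (fun p => p.2)
      · rintro ⟨a, c⟩ hp
        simp only [coe_sdiff, Set.mem_sdiff, mem_coe, mem_rowF, mem_map,
          Function.Embedding.coeFn_mk, Prod.mk.injEq] at hp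
        obtain ⟨⟨z, ⟨z', hz', rfl, rfl⟩, hr⟩, h3⟩ := hp
        simp only [coe_inter, Set.mem_inter_iff, mem_coe, mem_img, mem_filter, mem_univ, true_and,
          mem_rowF]
        exact ⟨⟨_, hz', hr⟩, h3⟩
      · rintro ⟨a, c⟩ hp ⟨a', c'⟩ hp' h
        simp only [coe_sdiff, Set.mem_sdiff, mem_coe, mem_rowF, mem_map,
          Function.Embedding.coeFn_mk, Prod.mk.injEq] at hp hp'
        obtain ⟨⟨z, ⟨z', hz', rfl, rfl⟩, hr⟩, h3⟩ := hp
        obtain ⟨⟨z, ⟨z'', hz'', rfl, rfl⟩, hr'⟩, h3'⟩ := hp'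
        simp only at h; rw [h]
    · intro y hy
      simp only [mem_filter, mem_univ, true_and] at hy
      have h3 : (u * b) x y = 0 := by
        by_cases h4 : (x, y) ∈ rowF r (colF r B)ᶜ
        · exact (z3 x y (mem_inter.mpr ⟨h4, mem_colF.mpr ⟨w, by simpa using hy, hwx⟩⟩)).1
        · exact s1 _ _ h4
      refine Eq.trans ?_ h3
      rw [Matrix.mul_apply]
      apply sum_congr rfl
      intro z' _
      by_cases h5 : (w, z') ∈ Z
      · simp [h5]
      · simp only [h5, if_false, zero_mul]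
        rcases hcov (w, z') with h | h | h
        · have : ¬ r z' y := fun hr => hy (mem_rowF.mpr ⟨z', h, hr⟩)
          simp [hb0 _ _ this]
        · have : (x, z') ∉ X1 := fun h6 => (mem_sdiff.mp h6).2 (mem_colF.mpr ⟨w, h, hwx⟩)
          rw [hu _ _ this, zero_mul]
        · exact absurd h h5
  have hv0 : ∀ w y, v w y = 0 := by
    intro w y
    by_cases h1 : (w, y) ∈ Y1
    swap
    · exact hv _ _ h1
    obtain ⟨z, hz, hzy⟩ := mem_rowF.mp (mem_sdiff.mp h1).1
    have := hb (univ.filter fun w => (w, z) ∈ Z) (univ.filter fun x => (x, z) ∉ colF r B) ?_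
      (fun w => if (w, z) ∈ Z then v w y else 0) (by intro z hz; simp at hz; simp [hz]) ?_
    · simpa [hz] using congrFun this w
    · intro T1 hT1
      have h2 := hC (T1.map ⟨fun w => (w, z), fun a b h => by simpa using h⟩) (by
        intro p hp
        simp only [mem_map, Function.Embedding.coeFn_mk] at hp
        obtain ⟨a, ha, rfl⟩ := hp
        exact (mem_filter.mp (hT1 ha)).2)
      rw [card_map] at h2
      refine h2.trans ?_
      apply card_le_card_of_injOn (fun p => p.1)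
      · rintro ⟨a, c⟩ hp
        simp only [coe_sdiff, Set.mem_sdiff, mem_coe, mem_colF, mem_map,
          Function.Embedding.coeFn_mk, Prod.mk.injEq] at hp
        obtain ⟨⟨z, ⟨z', hz', rfl, rfl⟩, hr⟩, h3⟩ := hp
        simp only [coe_inter, Set.mem_inter_iff, mem_coe, mem_img, mem_filter, mem_univ, true_and,
          mem_colF]
        exact ⟨⟨_, hz', hr⟩, h3⟩
      · rintro ⟨a, c⟩ hp ⟨a', c'⟩ hp' h
        simp only [coe_sdiff, Set.mem_sdiff, mem_coe, mem_colF, mem_map,
          Function.Embedding.coeFn_mk, Prod.mk.injEq] at hp hp'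
        obtain ⟨⟨z, ⟨z', hz', rfl, rfl⟩, hr⟩, h3⟩ := hp
        obtain ⟨⟨z, ⟨z'', hz'', rfl, rfl⟩, hr'⟩, h3'⟩ := hp'
        simp only at h; rw [h]
    · intro x hx
      simp only [mem_filter, mem_univ, true_and] at hx
      have h3 : (bᵀ * v) x y = 0 := by
        by_cases h4 : (x, y) ∈ colF r (rowF r A)ᶜ
        · exact (z3 x y (mem_inter.mpr ⟨mem_rowF.mpr ⟨z, by simpa using hx, hzy⟩, h4⟩)).2
        · exact s2 _ _ h4
      refine Eq.trans ?_ h3
      rw [Matrix.mul_apply]
      apply sum_congr rfl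
      intro w' _
      by_cases h5 : (w', z) ∈ Z
      · simp [h5, mul_comm]
      · simp only [h5, if_false, zero_mul, Matrix.transpose_apply]
        rcases hcov (w', z) with h | h | h
        · have : (w', y) ∉ Y1 := fun h6 => (mem_sdiff.mp h6).2 (mem_rowF.mpr ⟨z, h, hzy⟩)
          rw [hv _ _ this, mul_zero]
        · have : ¬ r w' x := fun hr => hx (mem_colF.mpr ⟨w', h, hr⟩)
          simp [hb0 _ _ this]
        · exact absurd h h5
  funext k
  rcases k with ⟨x, z⟩ | ⟨w, y⟩
  · exact hu0 x z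
  · exact hv0 w y

end Vale.Agent.P038
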